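import Vale.Agent.P097.H315.Marc

/-!
# P097 / block (T), straight line, ST-10 (b): the label of a pick
-/

set_option linter.all false

open MeasureTheory Set Filter Topology Metric
open scoped ENNReal

namespace Vale.Agent.P097.H133.St

open Vale.Agent.P097.H315.Marc

/-- **small slope budget: a label is near** -/
theorem infDist_le_of_Mz {A B : Set ℝ} {v ρ η : ℝ} (hA : A.Nonempty) (hρ : 0 < ρ)
    (hB : ball v ρ ⊆ B) (hη : 0 < η) (hη1 : η ≤ 1 / 2) (h : Mz A B v ρ < ENNReal.ofReal η) :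
    infDist v A ≤ √(8 * η) * ρ := by
  set D := infDist v A with hD
  have hD0 : 0 ≤ D := infDist_nonneg
  set m := min (D / 2) ρ with hm
  have hm0 : 0 ≤ m := le_min (by linarith) hρ.le
  have hmD : m ≤ D / 2 := min_le_left _ _
  have hmρ : m ≤ ρ := min_le_right _ _
  -- lower bound of the integral
  have h1 : ENNReal.ofReal (D / 2 / (2 * ρ) ^ 2) * ENNReal.ofReal (2 * m) ≤ Mz A B v ρ := by
    have hsub : ball v m ⊆ B := (ball_subset_ball hmρ).trans hB
    calc ENNReal.ofReal (D / 2 / (2 * ρ) ^ 2) * ENNReal.ofReal (2 * m)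
        = ∫⁻ _ in ball v m, ENNReal.ofReal (D / 2 / (2 * ρ) ^ 2) := by
          rw [setLIntegral_const, Real.volume_ball]
      _ ≤ ∫⁻ x in ball v m, ENNReal.ofReal (infDist x A / (ρ + |x - v|) ^ 2) := by
          refine setLIntegral_mono' measurableSet_ball fun x hx => ?_
          rw [mem_ball, Real.dist_eq] at hx
          apply ENNReal.ofReal_le_ofReal
          have h2 : D / 2 ≤ infDist x A := by
            have h3 : infDist v A ≤ infDist x A + dist v x := infDist_le_infDist_add_dist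
            rw [Real.dist_eq, abs_sub_comm] at h3
            linarith
          have h4 : ρ + |x - v| ≤ 2 * ρ := by linarith
          have h5 : 0 < ρ + |x - v| := by have := abs_nonneg (x - v); linarith
          exact div_le_div₀ (by linarith) h2 (by positivity) (pow_le_pow_left₀ h5.le h4 2)
      _ ≤ Mz A B v ρ := lintegral_mono_set hsub
  have h6 : D / 2 / (2 * ρ) ^ 2 * (2 * m) < η := by
    have h7 := h1.trans_lt h
    rw [← ENNReal.ofReal_mul (by positivity)] at h7
    exact (ENNReal.ofReal_lt_ofReal_iff hη).1 h7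
  have h8 : D * m < 4 * η * ρ ^ 2 := by
    have e : D / 2 / (2 * ρ) ^ 2 * (2 * m) = D * m / (4 * ρ ^ 2) := by
      field_simp
      ring
    rw [e, div_lt_iff₀ (by positivity)] at h6
    linarith
  rcases le_total (D / 2) ρ with h9 | h9
  · rw [hm, min_eq_left h9] at h8
    have h10 : D ^ 2 ≤ (√(8 * η) * ρ) ^ 2 := by
      rw [mul_pow, Real.sq_sqrt (by positivity)]
      nlinarith
    exact (pow_le_pow_iff_left₀ hD0 (by positivity) two_ne_zero).1 h10
  · exfalso
    rw [hm, min_eq_right h9] at h8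
    have : 2 * ρ * ρ ≤ D * ρ := mul_le_mul_of_nonneg_right (by linarith) hρ.le
    nlinarith

/-- the nearest label -/
theorem exists_label {A B : Set ℝ} {v ρ η : ℝ} (hA : A.Nonempty) (hc : IsClosed A) (hρ : 0 < ρ)
    (hB : ball v ρ ⊆ B) (hη : 0 < η) (hη1 : η ≤ 1 / 2) (h : Mz A B v ρ < ENNReal.ofReal η) :
    ∃ a ∈ A, |v - a| ≤ √(8 * η) * ρ := by
  obtain ⟨a, ha, hd⟩ := hc.exists_infDist_eq_dist hA v
  refine ⟨a, ha, ?_⟩
  rw [← Real.dist_eq, ← hd]
  exact infDist_le_of_Mz hA hρ hB hη hη1 h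

/-- the same in the scaled variable -/
theorem lab_scale {A B : Set ℝ} {u S x r η : ℝ} (hc : IsClosed A) (hu : u ∈ A) (hS : 0 < S)
    (hr : 0 < r) (hB : ball x r ⊆ B) (hη : 0 < η) (hη1 : η ≤ 1 / 2)
    (h : Mz {x | u + S * x ∈ A} B x r < ENNReal.ofReal η) :
    ∃ a ∈ A, |u + S * x - a| ≤ √(8 * η) * (S * r) := by
  have hc' : IsClosed {x | u + S * x ∈ A} := hc.preimage (by fun_prop)
  obtain ⟨x', hx', hd⟩ := exists_label ⟨0, by simpa using hu⟩ hc' hr hB hη hη1 h
  refine ⟨u + S * x', hx', ?_⟩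
  have e : u + S * x - (u + S * x') = S * (x - x') := by ring
  rw [e, abs_mul, abs_of_pos hS]
  calc S * |x - x'| ≤ S * (√(8 * η) * r) := mul_le_mul_of_nonneg_left hd hS.le
    _ = √(8 * η) * (S * r) := by ring

/-! ## scaling of the Marcinkiewicz integral -/

theorem infDist_scale {A : Set ℝ} {u S : ℝ} (hS : 0 < S) (hA : A.Nonempty) (x : ℝ) :
    infDist x {x | u + S * x ∈ A} = infDist (u + S * x) A / S := by
  have hne : {x | u + S * x ∈ A}.Nonempty := by
    obtain ⟨a, ha⟩ := hA
    refine ⟨(a - u) / S, ?_⟩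
    show u + S * ((a - u) / S) ∈ A
    rwa [mul_div_cancel₀ _ hS.ne', add_sub_cancel]
  apply le_antisymm
  · rw [le_div_iff₀ hS]
    refine (le_infDist hA).2 fun a ha => ?_
    have h1 : (a - u) / S ∈ {x | u + S * x ∈ A} := by
      show u + S * ((a - u) / S) ∈ A
      rwa [mul_div_cancel₀ _ hS.ne', add_sub_cancel]
    have h2 := infDist_le_dist_of_mem (x := x) h1
    have h3 : dist x ((a - u) / S) * S = dist (u + S * x) a := by
      rw [Real.dist_eq, Real.dist_eq, ← abs_of_pos hS, ← abs_mul, abs_of_pos hS]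
      congr 1
      field_simp
      ring
    rw [← h3]
    exact mul_le_mul_of_nonneg_right h2 hS.le
  · refine (le_infDist hne).2 fun y hy => ?_
    rw [div_le_iff₀ hS]
    have h2 : infDist (u + S * x) A ≤ dist (u + S * x) (u + S * y) := infDist_le_dist_of_mem hy
    have h3 : dist x y * S = dist (u + S * x) (u + S * y) := by
      rw [Real.dist_eq, Real.dist_eq, ← abs_of_pos hS, ← abs_mul, abs_of_pos hS]
      congr 1
      ring
    rw [h3]
    exact h2

/-- the Marcinkiewicz integral is scale invariant -/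
theorem Jm_scale {A : Set ℝ} {u S R : ℝ} (hS : 0 < S) (hA : A.Nonempty) :
    Jm {x | u + S * x ∈ A} (ball 0 R) 0 = Jm A (ball u (S * R)) u := by
  unfold Jm
  have hg : Measurable (fun x : ℝ => u + S * x) := by fun_prop
  have hmap : Measure.map (fun x : ℝ => u + S * x) volume =
      ENNReal.ofReal S⁻¹ • (volume : Measure ℝ) := by
    have h1 : Measure.map (fun x : ℝ => S * x) volume = ENNReal.ofReal |S⁻¹| • (volume : Measure ℝ) :=
      Real.map_volume_mul_left hS.ne'
    have h2 : (fun x : ℝ => u + S * x) = (fun x => u + x) ∘ (fun x : ℝ => S * x) := rfl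
    rw [h2, ← Measure.map_map (by fun_prop) (by fun_prop), h1, Measure.map_smul,
      map_add_left_eq_self, abs_of_pos (inv_pos.2 hS)]
  have hpre : (fun x : ℝ => u + S * x) ⁻¹' (ball u (S * R)) = ball 0 R := by
    ext x
    rw [mem_preimage, mem_ball, mem_ball, Real.dist_eq, Real.dist_eq, sub_zero, add_sub_cancel_left,
      abs_mul, abs_of_pos hS]
    exact mul_lt_mul_iff_right₀ hS
  set f : ℝ → ℝ≥0∞ := fun x => ENNReal.ofReal (infDist x A / (x - u) ^ 2) with hf
  have hfm : Measurable f := by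
    apply ENNReal.measurable_ofReal.comp
    apply Measurable.div
    · exact (Metric.continuous_infDist_pt A).measurable
    · fun_prop
  have h3 : ∫⁻ x in ball u (S * R), f x ∂(Measure.map (fun x : ℝ => u + S * x) volume) =
      ∫⁻ x in ball 0 R, f (u + S * x) := by
    rw [setLIntegral_map measurableSet_ball hfm hg, hpre]
  rw [hmap, Measure.restrict_smul, lintegral_smul_measure] at h3
  have h4 : ∀ x : ℝ, ENNReal.ofReal (infDist x {x | u + S * x ∈ A} / (x - 0) ^ 2) =
      ENNReal.ofReal S * f (u + S * x) := by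
    intro x
    rw [hf, infDist_scale hS hA, ← ENNReal.ofReal_mul hS.le]
    congr 1
    rw [sub_zero, add_sub_cancel_left]
    rcases eq_or_ne x 0 with rfl | hx
    · simp
    · field_simp
  have h5 : ∫⁻ x in ball 0 R, ENNReal.ofReal (infDist x {x | u + S * x ∈ A} / (x - 0) ^ 2) =
      ENNReal.ofReal S * ∫⁻ x in ball 0 R, f (u + S * x) := by
    rw [lintegral_congr h4]
    exact lintegral_const_mul _ (hfm.comp hg)
  rw [h5, ← h3, smul_eq_mul, ← mul_assoc, ← ENNReal.ofReal_mul hS.le, mul_inv_cancel₀ hS.ne',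
    ENNReal.ofReal_one, one_mul]

/-- **at almost every label the scaled Marcinkiewicz integral is small at small scales** -/
theorem jm_ae {A : Set ℝ} (hA : MeasurableSet A) (hb : Bornology.IsBounded A) :
    ∃ Nl : Set ℝ, volume Nl = 0 ∧ ∀ u ∈ A, u ∉ Nl → ∀ R : ℝ, 0 < R → ∀ η : ℝ, 0 < η →
      ∃ S₀ > 0, ∀ S : ℝ, 0 < S → S ≤ S₀ →
        8 * Jm {x | u + S * x ∈ A} (ball 0 R) 0 ≤ ENNReal.ofReal η := by
  obtain ⟨X, hX⟩ := hb.subset_ball (0 : ℝ)
  set B : Set ℝ := ball 0 (X + 1) with hB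
  have hBv : volume B < ∞ := by
    rw [hB, Real.volume_ball]
    exact ENNReal.ofReal_lt_top
  have h1 := J_ae (A := A) (B := B) hA hBv
  rw [ae_restrict_iff' hA] at h1
  refine ⟨{u | ¬ (u ∈ A → Jm A B u < ∞)}, h1, fun u hu hn R hR η hη => ?_⟩
  have hJ : Jm A B u < ∞ := by
    by_contra hc
    exact hn fun h => hc (h hu)
  obtain ⟨r, hr, hrJ⟩ := J_small hJ (e := ENNReal.ofReal (η / 8)) (by
    rw [ne_eq, ENNReal.ofReal_eq_zero, not_le]; positivity)
  refine ⟨min (r / R) (1 / R), by positivity, fun S hS hSS => ?_⟩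
  have h2 : S * R ≤ r := by
    have := hSS.trans (min_le_left _ _)
    rwa [le_div_iff₀ hR] at this
  have h3 : S * R ≤ 1 := by
    have := hSS.trans (min_le_right _ _)
    rwa [le_div_iff₀ hR] at this
  have hsub : ball u (S * R) ⊆ B ∩ ball u r := by
    intro x hx
    rw [mem_ball, Real.dist_eq] at hx
    have hu2 := hX hu
    rw [mem_ball, Real.dist_eq, sub_zero] at hu2
    refine ⟨?_, ?_⟩
    · rw [hB, mem_ball, Real.dist_eq, sub_zero]
      have h4 : |x| ≤ |x - u| + |u| := by
        have := abs_add_le (x - u) u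
        rwa [sub_add_cancel] at this
      linarith
    · rw [mem_ball, Real.dist_eq]
      linarith
  rw [Jm_scale hS ⟨u, hu⟩]
  have h5 := (Jm_mono A hsub u).trans hrJ.le
  calc 8 * Jm A (ball u (S * R)) u ≤ 8 * ENNReal.ofReal (η / 8) := by gcongr
    _ = ENNReal.ofReal η := by
      have h8 : (8 : ℝ≥0∞) = ENNReal.ofReal 8 := by norm_num
      rw [h8, ← ENNReal.ofReal_mul (by norm_num)]
      congr 1
      ring

end Vale.Agent.P097.H133.St
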