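import Vale.Agent.P097.H133.St.World

/-!
# P097 / block (T), straight line, ST-10 (b): the sequence of picks
-/

set_option linter.all false

open Complex Metric Filter Topology Set MeasureTheory
open scoped ComplexConjugate ENNReal

namespace Vale.Agent.P097.H133.St

open Vale.Agent.P097.TC Vale.Agent.P097.H226.W Vale.Agent.P097.H845.St Vale.Agent.P097.H509.St
open Vale.Agent.P097.A5 (W5 Sq Tou Gro)
open Vale.Agent.P097.H560 (Sx Sm Sm_eq sw_gen cmpU_cont)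
open Vale.Agent.P097.H315

section
variable {Λ H : ℝ} {F q : ℂ → ℂ} {b m : ℝ} {Ψ : ℂ → ℂ} {Mj Mk B : Set (ℂ × ℂ)} {A : Set ℝ}
  {P : ℝ → ℂ} {c k : ℝ → ℝ} {K s y₀ u₀ σ : ℝ} {al p th : ℂ × ℂ → ℂ} {J : ℂ → ℂ}

/-- the conclusion of `SelSt` for given constants -/
def SelC (Λ b : ℝ) (F q : ℂ → ℂ) (X om e V Xp op X' om' e' V' C₀ : ℝ) : Prop :=
  ∀ η κ : ℝ, 0 < η → 0 < κ → ∀ {δ : ℝ} {al p th : ℂ × ℂ → ℂ}, SW Λ b F q δ 1 al p th →
  (∀ h : ℝ, 0 < h → (X + 5) * h ≤ 1 → Md b F th X om e h ∧ |Vq F al th h| ≤ V) →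
  (∀ ε > 0, ∃ y' : ℝ, |y'| < ε ∧
    Tendsto (fun h : ℝ => |(th (pt y' 0 h)).im|) (𝓝[>] 0) (𝓝 b)) →
  ∀ {A B : Set ℝ}, MeasurableSet B → (0 : ℝ) ∈ A → 8 * Marc.Jm A B 0 ≤ ENNReal.ofReal η →
  ∃ y₀ x₀ r E₀ : ℝ, Pick b F al p th A B Xp op X' om' e' V' C₀ η κ y₀ x₀ r E₀

/-- the data of one pick -/
structure PkD (H : ℝ) (F : ℂ → ℂ) (P : ℝ → ℂ) (Ψ : ℂ → ℂ) (al p th : ℂ × ℂ → ℂ) (A : Set ℝ)
    (Xp op X' om' e' V' C₀ δ : ℝ) (n : ℕ) (y u S yp xp rp E a : ℝ) : Prop where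
  S0 : 0 < S
  S1 : S ≤ 1 / ((n : ℝ) + 1)
  b8 : |yp| + |xp| + rp ≤ 1 / 8
  bn : |yp| + |xp| + rp ≤ 1 / ((n : ℝ) + 1)
  lg : rp * Real.log (Mu P Ψ al p δ y u S n) ≤ 1 / ((n : ℝ) + 1)
  pk : Pick H F (al ∘ Sm P Ψ y u S) (p ∘ Sm P Ψ y u S) (th ∘ Sm P Ψ y u S) {x | u + S * x ∈ A}
        (ball 0 1) Xp op X' om' e' V' C₀ (1 / ((n : ℝ) + 2)) (1 / ((n : ℝ) + 1)) yp xp rp E
  lab : |u + S * xp - a| ≤ √(8 * (1 / ((n : ℝ) + 2))) * (S * rp)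

/-- one pick in the world over `(y, u)` -/
theorem pick_one {X om e V Xp op X' om' e' V' C₀ : ℝ}
    (hsel : SelC Λ H F q X om e V Xp op X' om' e' V' C₀) (hA : IsClosed A) {y u δ₁ ρ₁ δ : ℝ}
    (hu : u ∈ A) (hρ₁ : 0 < ρ₁)
    (hsw : ∀ ρ : ℝ, 0 < ρ → ρ ≤ ρ₁ → SW Λ H F q δ₁ 1 (al ∘ Sm P Ψ y u ρ) (p ∘ Sm P Ψ y u ρ)
      (th ∘ Sm P Ψ y u ρ))
    (hJ : ∀ η : ℝ, 0 < η → ∃ S₀ > 0, ∀ S : ℝ, 0 < S → S ≤ S₀ →
      8 * Marc.Jm {x | u + S * x ∈ A} (ball 0 1) 0 ≤ ENNReal.ofReal η)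
    (ha : ∃ S₁ > 0, ∀ S : ℝ, 0 < S → S ≤ S₁ → InSt H F P Ψ al th X om e V y u S) (n : ℕ) :
    ∃ S yp xp rp E a : ℝ, a ∈ A ∧
      PkD H F P Ψ al p th A Xp op X' om' e' V' C₀ δ n y u S yp xp rp E a := by
  obtain ⟨S₁, hS₁, ha⟩ := ha
  have hn0 : (0 : ℝ) ≤ n := Nat.cast_nonneg n
  obtain ⟨S₀, hS₀, hJ⟩ := hJ (1 / ((n : ℝ) + 2)) (by positivity)
  set S : ℝ := min (min S₁ S₀) (min ρ₁ (1 / ((n : ℝ) + 1))) with hSd
  have hS : 0 < S := by rw [hSd]; positivity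
  have hS1 : S ≤ S₁ := (min_le_left _ _).trans (min_le_left _ _)
  have hS2 : S ≤ S₀ := (min_le_left _ _).trans (min_le_right _ _)
  have hS3 : S ≤ ρ₁ := (min_le_right _ _).trans (min_le_left _ _)
  have hS4 : S ≤ 1 / ((n : ℝ) + 1) := (min_le_right _ _).trans (min_le_right _ _)
  obtain ⟨i1, i2⟩ := ha S hS hS1
  set M := Mu P Ψ al p δ y u S n with hM
  have hM1 : 1 ≤ M := one_le_Mu _ _ _ _ _ _ _ _ _
  have hL0 : 0 ≤ Real.log M := Real.log_nonneg hM1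
  set κ : ℝ := min (1 / 8) (1 / (((n : ℝ) + 1) * (1 + Real.log M))) with hκd
  have hκ : 0 < κ := by rw [hκd]; positivity
  have hκ1 : κ ≤ 1 / 8 := min_le_left _ _
  have hκ2 : κ * (1 + Real.log M) ≤ 1 / ((n : ℝ) + 1) := by
    have h1 : κ ≤ 1 / (((n : ℝ) + 1) * (1 + Real.log M)) := min_le_right _ _
    rw [le_div_iff₀ (by positivity)] at h1
    rw [le_div_iff₀ (by positivity)]
    linarith
  have hκ3 : κ ≤ 1 / ((n : ℝ) + 1) := by nlinarith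
  obtain ⟨yp, xp, rp, E, hP⟩ := hsel (1 / ((n : ℝ) + 2)) κ (by positivity) hκ (hsw S hS hS3) i1
    (fun ε hε => i2 ε hε) (A := {x | u + S * x ∈ A}) (B := ball 0 1) measurableSet_ball
    (by show u + S * 0 ∈ A; simpa using hu) (hJ S hS hS2)
  have hloc := hP.loc
  have hr := hP.r0
  have hxr : |xp| + rp ≤ 1 / 8 := by
    have := abs_nonneg yp
    linarith
  have hball : ball xp rp ⊆ ball (0 : ℝ) 1 := by
    intro x hx
    rw [mem_ball, Real.dist_eq] at hx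
    rw [mem_ball, Real.dist_eq, sub_zero]
    have h1 : |x| ≤ |x - xp| + |xp| := by
      have := abs_add_le (x - xp) xp
      rwa [sub_add_cancel] at this
    linarith
  have hη1 : 1 / ((n : ℝ) + 2) ≤ 1 / 2 := by
    apply one_div_le_one_div_of_le (by norm_num)
    linarith
  obtain ⟨a, haA, hda⟩ := lab_scale hA hu hS hr hball (by positivity) hη1 hP.mz
  have h1 : rp ≤ κ := by
    have := abs_nonneg yp
    have := abs_nonneg xp
    linarith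
  have h2 : rp * Real.log M ≤ 1 / ((n : ℝ) + 1) := by
    calc rp * Real.log M ≤ κ * (1 + Real.log M) := by nlinarith
      _ ≤ _ := hκ2
  exact ⟨S, yp, xp, rp, E, a, haA, hS, hS4, by linarith, by linarith, h2, Pick.mono hP hκ3, hda⟩

/-- `r log r⁻¹ → 0` -/
theorem tend_log {l : Filter ℕ} {r : ℕ → ℝ} (h1 : Tendsto r l (𝓝 0)) :
    Tendsto (fun n => r n * Real.log (r n)⁻¹) l (𝓝 0) := by
  have h3 := ((Real.continuous_mul_log.tendsto 0).comp h1).neg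
  simp only [zero_mul, neg_zero] at h3
  refine h3.congr fun n => ?_
  simp only [Function.comp_apply, Real.log_inv]
  ring

theorem round_bd (w : ℂ) {C : ℝ} (h : |w.im| ≤ C) :
    ‖w - 2 * Real.pi * (round (w.re / (2 * Real.pi)) : ℤ)‖ ≤ Real.pi + C := by
  have hre : |(w - 2 * Real.pi * (round (w.re / (2 * Real.pi)) : ℤ)).re| ≤ Real.pi := by
    have e1 : (w - 2 * Real.pi * (round (w.re / (2 * Real.pi)) : ℤ)).re =
        2 * Real.pi * (w.re / (2 * Real.pi) - round (w.re / (2 * Real.pi))) := by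
      simp only [sub_re, mul_re, re_ofNat, ofReal_re, im_ofNat, ofReal_im, mul_zero, sub_zero,
        intCast_re, intCast_im, mul_im, zero_mul, add_zero]
      field_simp
    rw [e1, abs_mul, abs_of_pos (by positivity : (0 : ℝ) < 2 * Real.pi)]
    have := abs_sub_round (w.re / (2 * Real.pi))
    nlinarith [Real.pi_pos]
  have him : (w - 2 * Real.pi * (round (w.re / (2 * Real.pi)) : ℤ)).im = w.im := by
    simp [mul_im]
  refine (norm_le_abs_re_add_abs_im _).trans ?_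
  rw [him]
  linarith

theorem arc_num {g g₁ g₂ : ℂ × ℂ} {M C h r : ℝ} (hM : 1 ≤ M) (hC : 1 ≤ C)
    (hr : 0 < r) (hr1 : r ≤ 1) (hh : 0 < h) (hh1 : h ≤ 1) (b1 : ‖g‖ ≤ M) (b2 : ‖g₁‖ ≤ M)
    (b3 : ‖g₁.1 - g₂.1‖ ≤ C * (1 + Real.log (h / r))) (b4 : ‖g₁.2‖ ≤ C) (b5 : ‖g₂.2‖ ≤ C) :
    ‖g - g₂‖ ≤ Real.exp (Real.log M + 3 + 2 * C * (1 + Real.log r⁻¹)) := by
  have hlog0 : 0 ≤ Real.log r⁻¹ := Real.log_nonneg ((one_le_inv₀ hr).2 hr1)
  have hlogle : Real.log (h / r) ≤ Real.log r⁻¹ := by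
    apply Real.log_le_log (by positivity)
    rw [div_eq_mul_inv]
    have : 0 < r⁻¹ := inv_pos.2 hr
    nlinarith
  set l : ℝ := Real.log r⁻¹ with hl
  set t : ℝ := 2 * C * (1 + l) with ht
  have ht0 : 0 ≤ t := by rw [ht]; positivity
  have b6 : ‖g₁ - g₂‖ ≤ t := by
    rw [Prod.norm_def]
    refine max_le ?_ ?_
    · refine b3.trans ?_
      have : C * (1 + Real.log (h / r)) ≤ C * (1 + l) :=
        mul_le_mul_of_nonneg_left (by linarith) (by linarith)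
      have h0 : 0 ≤ C * (1 + l) := by positivity
      rw [ht]
      linarith
    · refine (norm_sub_le _ _).trans ((add_le_add b4 b5).trans ?_)
      have h0 : 0 ≤ C * l := by positivity
      rw [ht]
      linarith
  have b7 : ‖g - g₂‖ ≤ 2 * M + t := by
    have e1 : g - g₂ = g - g₁ + (g₁ - g₂) := by rw [sub_add_sub_cancel]
    rw [e1]
    refine (norm_add_le _ _).trans ?_
    have := norm_sub_le g g₁
    linarith
  refine b7.trans ?_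
  have e2 : Real.exp (Real.log M + 3 + t) = M * Real.exp (3 + t) := by
    rw [add_assoc, Real.exp_add, Real.exp_log (by linarith)]
  rw [e2]
  have e3 : t + 4 ≤ Real.exp (3 + t) := by
    have := Real.add_one_le_exp (3 + t)
    linarith
  have e4 : M * (t + 4) ≤ M * Real.exp (3 + t) := mul_le_mul_of_nonneg_left e3 (by linarith)
  nlinarith

theorem mem_Ej {δ y x h : ℝ} {j : ℕ} (hδ : 0 ≤ δ) (hy : |y| ≤ 1 / 8) (hx : |x| ≤ 1 / 8)
    (hh : 0 < h) (hh1 : h ≤ 1 / 12) (hj : 1 / ((j : ℝ) + 2) ≤ h) :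
    pt y x h ∈ H190.SQ.Ej δ j := by
  have f1 : (pt y x h).1.re = y := by simp [pt]
  have f2 : (pt y x h).1.im = -h := by simp [pt]
  have f3 : (pt y x h).2.re = x := by simp [pt]
  have f4 : (pt y x h).2.im = h := by simp [pt]
  refine ⟨?_, ?_, ?_, ?_, ?_, ?_⟩
  · rw [f1]; linarith
  · rw [f2, abs_neg, abs_of_pos hh]; linarith
  · rw [f3]; linarith
  · rw [f4, abs_of_pos hh]; linarith
  · rw [f4]; exact hj
  · rw [f2, f4]; nlinarith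

/-- the arc bound in one world -/
theorem arc_world {a' p' : ℂ × ℂ → ℂ} {C X y x r M δ : ℝ} {j : ℕ} (hX : 1 ≤ X)
    (hj : 2 * (X + 5) < j) (hC : 1 ≤ C)
    (hT : ∀ h : ℝ, r ≤ h → (X + 5) * h ≤ 1 / 2 → |(a' (pt y x h)).im| ≤ C ∧ ‖p' (pt y x h)‖ ≤ C ∧
      ‖a' (pt y x h) - a' (pt y x r)‖ ≤ C * (1 + Real.log (h / r)))
    (hy : |y| ≤ 1 / 8) (hx : |x| ≤ 1 / 8) (hr : 0 < r) (hr1 : r ≤ 1 / (2 * (X + 5)))
    (hδ : 0 ≤ δ) (hM : 1 ≤ M) (hE : ∀ z ∈ H190.SQ.Ej δ j, ‖LL a' p' z‖ ≤ M) {z : ℂ × ℂ}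
    (hz : ‖LL a' p' z‖ ≤ M) :
    ‖LL a' p' z - LL a' p' (pt y x r)‖ ≤
      Real.exp (Real.log M + 3 + 2 * C * (1 + Real.log r⁻¹)) := by
  set h₁ : ℝ := 1 / (2 * (X + 5)) with hh₁
  have hh₁0 : 0 < h₁ := by rw [hh₁]; positivity
  have hh₁1 : (X + 5) * h₁ ≤ 1 / 2 := by
    have : (X + 5) * h₁ = 1 / 2 := by
      rw [hh₁]
      field_simp
    rw [this]
  obtain ⟨p1, p2, p3⟩ := hT h₁ hr1 hh₁1
  obtain ⟨p4, p5, p6⟩ := hT r le_rfl
    ((mul_le_mul_of_nonneg_left hr1 (by linarith)).trans hh₁1)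
  have hh₁s : h₁ ≤ 1 / 12 := by
    rw [hh₁]
    apply one_div_le_one_div_of_le (by norm_num)
    linarith
  have hjh : 1 / ((j : ℝ) + 2) ≤ h₁ := by
    rw [hh₁]
    apply one_div_le_one_div_of_le (by positivity)
    linarith
  exact arc_num (g := LL a' p' z) (g₁ := LL a' p' (pt y x h₁)) (g₂ := LL a' p' (pt y x r)) hM hC hr
    (by linarith) hh₁0 (by linarith) hz (hE _ (mem_Ej hδ hy hx hh₁0 hh₁s hjh)) p3 p2 p5

/-- the raw sequence of picks -/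
theorem picks_raw {X om e V Xp op X' om' e' V' C₀ : ℝ}
    (hsel : SelC Λ H F q X om e V Xp op X' om' e' V' C₀)
    (W : W5 Λ H F q b m Ψ Mj Mk B A P c k K y₀ u₀ σ s al p th J) {y u : ℕ → ℝ}
    (hS : Sq A y₀ u₀ y u) (hks : 0 < s - k u₀)
    (hJ : ∀ n, ∀ R : ℝ, 0 < R → ∀ η : ℝ, 0 < η → ∃ S₀ > 0, ∀ S : ℝ, 0 < S → S ≤ S₀ →
      8 * Marc.Jm {x | u n + S * x ∈ A} (ball 0 R) 0 ≤ ENNReal.ofReal η)
    (ha : ∀ᶠ n in atTop, ∃ S₁ > 0, ∀ S : ℝ, 0 < S → S ≤ S₁ →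
      InSt H F P Ψ al th X om e V (y n) (u n) S) :
    ∃ S yp xp rp E a : ℕ → ℝ, (∀ n, a n ∈ A) ∧ ∀ᶠ n in atTop,
      PkD H F P Ψ al p th A Xp op X' om' e' V' C₀ (s - k u₀) n (y n) (u n) (S n) (yp n) (xp n)
        (rp n) (E n) (a n) := by
  obtain ⟨ρ₁, hρ₁, hsw₁⟩ := sw_seq W hS (half_pos hks)
  have key : ∀ n, ∃ S yp xp rp E a : ℝ, a ∈ A ∧
      (((∃ S₁ > 0, ∀ S : ℝ, 0 < S → S ≤ S₁ → InSt H F P Ψ al th X om e V (y n) (u n) S) ∧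
        (∀ ρ : ℝ, 0 < ρ → ρ ≤ ρ₁ → ∀ δ : ℝ, 0 < δ → δ ≤ s - k u₀ - (s - k u₀) / 2 →
          SW Λ H F q δ 1 (al ∘ Sm P Ψ (y n) (u n) ρ) (p ∘ Sm P Ψ (y n) (u n) ρ)
            (th ∘ Sm P Ψ (y n) (u n) ρ))) →
      PkD H F P Ψ al p th A Xp op X' om' e' V' C₀ (s - k u₀) n (y n) (u n) S yp xp rp E a) := by
    intro n
    by_cases hG : ((∃ S₁ > 0, ∀ S : ℝ, 0 < S → S ≤ S₁ →
        InSt H F P Ψ al th X om e V (y n) (u n) S) ∧
        (∀ ρ : ℝ, 0 < ρ → ρ ≤ ρ₁ → ∀ δ : ℝ, 0 < δ → δ ≤ s - k u₀ - (s - k u₀) / 2 →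
          SW Λ H F q δ 1 (al ∘ Sm P Ψ (y n) (u n) ρ) (p ∘ Sm P Ψ (y n) (u n) ρ)
            (th ∘ Sm P Ψ (y n) (u n) ρ)))
    · obtain ⟨S, yp, xp, rp, E, a, h1, h2⟩ := pick_one (al := al) (p := p) (th := th) (P := P)
        (Ψ := Ψ) (A := A) hsel
        W.cA.isClosed (y := y n) (u := u n) (δ₁ := (s - k u₀) / 2) (ρ₁ := ρ₁) (δ := s - k u₀)
        (hS.uA n) hρ₁
        (fun ρ hρ hρ' => hG.2 ρ hρ hρ' _ (half_pos hks) (by linarith))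
        (fun η hη => hJ n 1 one_pos η hη) hG.1 n
      exact ⟨S, yp, xp, rp, E, a, h1, fun _ => h2⟩
    · exact ⟨0, 0, 0, 0, 0, u n, hS.uA n, fun h => absurd h hG⟩
  choose S yp xp rp E a haA hkey using key
  refine ⟨S, yp, xp, rp, E, a, haA, ?_⟩
  filter_upwards [ha, hsw₁] with n h1 h2
  exact hkey n ⟨h1, h2⟩

/-- elementary limits of the picks -/
theorem picks_lim {Xp op X' om' e' V' C₀ δ y₀ u₀ : ℝ} {y u S yp xp rp E a : ℕ → ℝ}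
    (hPc : ContinuousOn P A) (hu₀ : u₀ ∈ A) (hS : Sq A y₀ u₀ y u) (haA : ∀ n, a n ∈ A)
    (hg : ∀ᶠ n in atTop, PkD H F P Ψ al p th A Xp op X' om' e' V' C₀ δ n (y n) (u n) (S n) (yp n)
      (xp n) (rp n) (E n) (a n)) :
    Tendsto S atTop (𝓝 0) ∧ Tendsto rp atTop (𝓝 0) ∧
    Tendsto (fun n => S n * rp n) atTop (𝓝[>] 0) ∧
    Tendsto (fun n => (u n + S n * xp n - a n) / (S n * rp n)) atTop (𝓝 0) ∧
    Sq A y₀ u₀ (fun n => y n - (P (u n)).re + S n * yp n + (P (a n)).re) a := by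
  have t1 : Tendsto (fun n : ℕ => 1 / ((n : ℝ) + 1)) atTop (𝓝 0) :=
    tendsto_one_div_add_atTop_nhds_zero_nat
  have tη : Tendsto (fun n : ℕ => √(8 * (1 / ((n : ℝ) + 2)))) atTop (𝓝 0) := by
    have h1 : Tendsto (fun n : ℕ => 1 / ((n : ℝ) + 2)) atTop (𝓝 0) := by
      have := (tendsto_add_atTop_iff_nat 1).2 t1
      refine this.congr fun n => ?_
      push_cast
      ring
    have h2 := (Real.continuous_sqrt.tendsto _).comp (h1.const_mul 8)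
    rw [mul_zero, Real.sqrt_zero] at h2
    exact h2
  have hSt : Tendsto S atTop (𝓝 0) :=
    squeeze_zero' (hg.mono fun n h => h.S0.le) (hg.mono fun n h => h.S1) t1
  have hrp0 : ∀ᶠ n in atTop, 0 < rp n := hg.mono fun n h => h.pk.r0
  have hrpt : Tendsto rp atTop (𝓝 0) :=
    squeeze_zero' (hrp0.mono fun n h => h.le) (hg.mono fun n h => by
      have h1 := h.bn
      have := abs_nonneg (yp n)
      have := abs_nonneg (xp n)
      linarith) t1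
  have hypt : Tendsto yp atTop (𝓝 0) := by
    rw [tendsto_zero_iff_abs_tendsto_zero]
    refine squeeze_zero' (Eventually.of_forall fun n => abs_nonneg _) (hg.mono fun n h => ?_) t1
    have h1 := h.bn
    have := h.pk.r0
    have := abs_nonneg (xp n)
    show |yp n| ≤ _
    linarith
  have hxpt : Tendsto xp atTop (𝓝 0) := by
    rw [tendsto_zero_iff_abs_tendsto_zero]
    refine squeeze_zero' (Eventually.of_forall fun n => abs_nonneg _) (hg.mono fun n h => ?_) t1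
    have h1 := h.bn
    have := h.pk.r0
    have := abs_nonneg (yp n)
    show |xp n| ≤ _
    linarith
  have hr0 : ∀ᶠ n in atTop, 0 < S n * rp n := by
    filter_upwards [hg, hrp0] with n h1 h2
    exact mul_pos h1.S0 h2
  have hrt : Tendsto (fun n => S n * rp n) atTop (𝓝 0) := by simpa using hSt.mul hrpt
  have hva : Tendsto (fun n => (u n + S n * xp n - a n) / (S n * rp n)) atTop (𝓝 0) := by
    rw [tendsto_zero_iff_abs_tendsto_zero]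
    refine squeeze_zero' (Eventually.of_forall fun n => abs_nonneg _) ?_ tη
    filter_upwards [hg, hr0] with n h1 h2
    show |(u n + S n * xp n - a n) / (S n * rp n)| ≤ _
    rw [abs_div, abs_of_pos h2, div_le_iff₀ h2]
    exact h1.lab
  have hvt : Tendsto (fun n => u n + S n * xp n) atTop (𝓝 u₀) := by
    have := hS.ut.add (hSt.mul hxpt)
    simpa using this
  have hat : Tendsto a atTop (𝓝 u₀) := by
    have h1 := hva.mul hrt
    rw [mul_zero] at h1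
    have h2 := hvt.sub h1
    rw [sub_zero] at h2
    refine h2.congr' ?_
    filter_upwards [hr0] with n hn
    rw [div_mul_cancel₀ _ hn.ne']
    ring
  have hPu : Tendsto (fun n => (P (u n)).re) atTop (𝓝 (P u₀).re) :=
    (continuous_re.tendsto _).comp ((hPc u₀ hu₀).tendsto.comp
      (tendsto_nhdsWithin_iff.2 ⟨hS.ut, Eventually.of_forall hS.uA⟩))
  have hPa : Tendsto (fun n => (P (a n)).re) atTop (𝓝 (P u₀).re) :=
    (continuous_re.tendsto _).comp ((hPc u₀ hu₀).tendsto.comp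
      (tendsto_nhdsWithin_iff.2 ⟨hat, Eventually.of_forall haA⟩))
  have hyt : Tendsto (fun n => y n - (P (u n)).re + S n * yp n + (P (a n)).re) atTop (𝓝 y₀) := by
    have h1 := ((hS.yt.sub hPu).add (hSt.mul hypt)).add hPa
    have e1 : y₀ - (P u₀).re + 0 * 0 + (P u₀).re = y₀ := by ring
    rw [e1] at h1
    exact h1
  exact ⟨hSt, hrpt, tendsto_nhdsWithin_iff.2 ⟨hrt, hr0⟩, hva, ⟨hyt, hat, haA⟩⟩

/-- `rp * Aa → 0` -/
theorem picks_Aa {rp M : ℕ → ℝ} (C : ℝ) (hrp0 : ∀ᶠ n in atTop, 0 < rp n)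
    (hrpt : Tendsto rp atTop (𝓝 0)) (hM : ∀ n, 1 ≤ M n)
    (h : ∀ᶠ n : ℕ in atTop, rp n * Real.log (M n) ≤ 1 / ((n : ℝ) + 1)) :
    Tendsto (fun n => rp n * (Real.log (M n) + 3 + 2 * C * (1 + Real.log (rp n)⁻¹))) atTop
      (𝓝 0) := by
  have h1 : Tendsto (fun n => rp n * Real.log (M n)) atTop (𝓝 0) :=
    squeeze_zero' (by
      filter_upwards [hrp0] with n hn
      exact mul_nonneg hn.le (Real.log_nonneg (hM n))) h tendsto_one_div_add_atTop_nhds_zero_nat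
  have h2 := tend_log hrpt
  have h3 := (h1.add (hrpt.mul_const 3)).add ((hrpt.add h2).const_mul (2 * C))
  have e1 : (0 : ℝ) + 0 * 3 + 2 * C * (0 + 0) = 0 := by ring
  rw [e1] at h3
  refine h3.congr fun n => ?_
  ring

/-- `Mu` controls the exhaustion -/
theorem picks_ctl {y u S : ℕ → ℝ} (hks : 0 < s - k u₀)
    (hSW : ∀ γ > 0, ∀ᶠ n in atTop, ∀ δ : ℝ, 0 < δ → δ ≤ s - k u₀ - γ →
      SW Λ H F q δ 1 (al ∘ Sm P Ψ (y n) (u n) (S n)) (p ∘ Sm P Ψ (y n) (u n) (S n))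
        (th ∘ Sm P Ψ (y n) (u n) (S n))) (j : ℕ) :
    ∀ᶠ n in atTop, ∀ z ∈ H190.SQ.Ej (s - k u₀) j,
      ‖LL (al ∘ Sm P Ψ (y n) (u n) (S n)) (p ∘ Sm P Ψ (y n) (u n) (S n)) z‖ ≤
        Mu P Ψ al p (s - k u₀) (y n) (u n) (S n) n := by
  have hj0 : (0 : ℝ) < 1 / (j + 2) := by positivity
  set γ : ℝ := min (1 / (j + 2) / 2) ((s - k u₀) / 2) with hγd
  have hγ : 0 < γ := by rw [hγd]; positivity
  have hγ1 : γ ≤ 1 / (j + 2) / 2 := min_le_left _ _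
  have hγ2 : γ ≤ (s - k u₀) / 2 := min_le_right _ _
  filter_upwards [hSW γ hγ, eventually_ge_atTop j] with n h1 h2 z hz
  have h3 := h1 (s - k u₀ - γ) (by linarith) le_rfl
  exact le_Mu h2 (by linarith) h3.dal h3.dp hz

theorem exp_facts {M C r : ℝ} (hM : 1 ≤ M) (hC : 1 ≤ C) (hr : 0 < r) (hr1 : r < 1) :
    0 ≤ Real.log M + 3 + 2 * C * (1 + Real.log r⁻¹) := by
  have h4 : 0 ≤ Real.log r⁻¹ := Real.log_nonneg ((one_le_inv₀ hr).2 hr1.le)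
  have h5 := Real.log_nonneg hM
  have h6 : 0 ≤ 2 * C * (1 + Real.log r⁻¹) := by positivity
  linarith

/-- **the sequence of picks** -/
theorem exists_picks (hSel : SelSt)
    (W : W5 Λ H F q b m Ψ Mj Mk B A P c k K y₀ u₀ σ s al p th J) {y u : ℕ → ℝ}
    (hS : Sq A y₀ u₀ y u) (hk : k u₀ ≤ σ)
    (hJ : ∀ n, ∀ R : ℝ, 0 < R → ∀ η : ℝ, 0 < η → ∃ S₀ > 0, ∀ S : ℝ, 0 < S → S ≤ S₀ →
      8 * Marc.Jm {x | u n + S * x ∈ A} (ball 0 R) 0 ≤ ENNReal.ofReal η)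
    {X om e V : ℝ} (hX : 2 ≤ X) (hom : 0 < om) (hom1 : om ≤ 1 / 2) (he : 0 < e) (hV : 0 ≤ V)
    (ha : ∀ᶠ n in atTop, ∃ S₁ > 0, ∀ S : ℝ, 0 < S → S ≤ S₁ →
      InSt H F P Ψ al th X om e V (y n) (u n) S) :
    ∃ Xp op X' om' e' V' C₀ : ℝ, (2 ≤ Xp ∧ 0 < op ∧ op ≤ 1 / 2 ∧ Xp ≤ X' ∧ 0 < om' ∧ om' ≤ op ∧
      0 < e' ∧ 0 ≤ V' ∧ 0 < C₀) ∧
    ∃ (S yp xp rp E Aa y' v r a : ℕ → ℝ) (M : ℕ → ℤ) (Cc : ℝ),
      Sq A y₀ u₀ y' a ∧ Tendsto r atTop (𝓝[>] 0) ∧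
      Tendsto (fun n => (v n - a n) / r n) atTop (𝓝 0) ∧
      (∀ n, y' n - (P (a n)).re = y n - (P (u n)).re + S n * yp n ∧ v n = u n + S n * xp n ∧
        r n = S n * rp n) ∧
      Tendsto rp atTop (𝓝 0) ∧ Tendsto (fun n => rp n * Aa n) atTop (𝓝 0) ∧
      Tendsto (fun n => rp n * Real.log (E n)⁻¹) atTop (𝓝 0) ∧
      (∀ᶠ n in atTop, 0 < S n ∧ |yp n| ≤ 1 / 8 ∧ |xp n| ≤ 1 / 8 ∧ 0 < rp n ∧ 0 < E n ∧ E n ≤ 1 ∧
        0 ≤ Aa n ∧ Pick H F (al ∘ Sm P Ψ (y n) (u n) (S n)) (p ∘ Sm P Ψ (y n) (u n) (S n))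
          (th ∘ Sm P Ψ (y n) (u n) (S n)) {x | u n + S n * x ∈ A} (ball 0 1) Xp op X' om' e' V' C₀
          (1 / ((n : ℝ) + 2)) (1 / ((n : ℝ) + 1)) (yp n) (xp n) (rp n) (E n)) ∧
      (∀ γ > 0, ∀ᶠ n in atTop, ∀ δ : ℝ, 0 < δ → δ ≤ s - k u₀ - γ →
        SW Λ H F q δ 1 (al ∘ Sm P Ψ (y n) (u n) (S n)) (p ∘ Sm P Ψ (y n) (u n) (S n))
          (th ∘ Sm P Ψ (y n) (u n) (S n))) ∧
      (∀ γ > 0, ∀ Z : Set (ℂ × ℂ), IsCompact Z → Z ⊆ Bx 1 ∩ H226.W.Wd (s - k u₀ - γ) →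
        ∀ᶠ n in atTop, ∀ z ∈ Z,
        ‖LL (al ∘ Sm P Ψ (y n) (u n) (S n)) (p ∘ Sm P Ψ (y n) (u n) (S n)) z -
          LL (al ∘ Sm P Ψ (y n) (u n) (S n)) (p ∘ Sm P Ψ (y n) (u n) (S n))
            (pt (yp n) (xp n) (rp n))‖ ≤ Real.exp (Aa n)) ∧
      ∀ᶠ n in atTop, ‖al (Sm P Ψ (y n) (u n) (S n) (pt (yp n) (xp n) (rp n))) -
          2 * Real.pi * M n‖ ≤ Cc ∧
        ‖p (Sm P Ψ (y n) (u n) (S n) (pt (yp n) (xp n) (rp n)))‖ ≤ Cc := by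
  have hks : 0 < s - k u₀ := by linarith [W.σs]
  obtain ⟨Xp, op, X', om', e', V', C₀, hcs, hsel⟩ := hSel W.crv.cv (grw_of W.crv.gro)
    ⟨W.crv.Fp, W.crv.qp⟩ X om e V hX hom hom1 he hV
  obtain ⟨cXp, cop, cop1, cX', com', com1, ce', cV', cC₀⟩ := hcs
  have hX'1 : 1 ≤ X' := by linarith
  obtain ⟨C₁, hC₁, htel⟩ := tel W.crv.cv (grw_of W.crv.gro) ce' hX'1 com' (by linarith) cV'
  obtain ⟨S, yp, xp, rp, E, a, haA, hg⟩ := picks_raw hsel W hS hks hJ ha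
  obtain ⟨hSt, hrpt, hrt, hva, hSq⟩ := picks_lim (cmpU_cont W.Uk).1 W.u0 hS haA hg
  have hSW : ∀ γ > 0, ∀ᶠ n in atTop, ∀ δ : ℝ, 0 < δ → δ ≤ s - k u₀ - γ →
      SW Λ H F q δ 1 (al ∘ Sm P Ψ (y n) (u n) (S n)) (p ∘ Sm P Ψ (y n) (u n) (S n))
        (th ∘ Sm P Ψ (y n) (u n) (S n)) := by
    intro γ hγ
    obtain ⟨ρ₀, hρ₀, h1⟩ := sw_seq W hS hγ
    filter_upwards [h1, hg, hSt.eventually_lt_const hρ₀] with n h2 h3 h4 δ hδ hδ'
    exact h2 (S n) h3.S0 h4.le δ hδ hδ'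
  have hrp0 : ∀ᶠ n in atTop, 0 < rp n := hg.mono fun n h => h.pk.r0
  have hMn1 : ∀ n, 1 ≤ Mu P Ψ al p (s - k u₀) (y n) (u n) (S n) n := fun n =>
    one_le_Mu _ _ _ _ _ _ _ _ _
  have hh₁ : (0 : ℝ) < 1 / (2 * (X' + 5)) := by positivity
  -- telescoping at the picks
  have hT : ∀ᶠ n in atTop, ∀ h : ℝ, rp n ≤ h → (X' + 5) * h ≤ 1 / 2 →
      |((al ∘ Sm P Ψ (y n) (u n) (S n)) (pt (yp n) (xp n) h)).im| ≤ C₁ ∧
      ‖(p ∘ Sm P Ψ (y n) (u n) (S n)) (pt (yp n) (xp n) h)‖ ≤ C₁ ∧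
      ‖(al ∘ Sm P Ψ (y n) (u n) (S n)) (pt (yp n) (xp n) h) -
        (al ∘ Sm P Ψ (y n) (u n) (S n)) (pt (yp n) (xp n) (rp n))‖ ≤
          C₁ * (1 + Real.log (h / rp n)) := by
    filter_upwards [hg, hSW _ (half_pos hks)] with n h c4
    have hr := h.pk.r0
    have h2 := h.b8
    have a1 := abs_nonneg (yp n)
    have a2 := abs_nonneg (xp n)
    exact htel (c4 ((s - k u₀) / 2) (half_pos hks) (by linarith)).sq (yp n) (xp n) (rp n)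
      (by linarith) (by linarith) hr h.pk.mv
  refine ⟨Xp, op, X', om', e', V', C₀, ⟨cXp, cop, cop1, cX', com', com1, ce', cV', cC₀⟩, S, yp, xp,
    rp, E, fun n => Real.log (Mu P Ψ al p (s - k u₀) (y n) (u n) (S n) n) + 3 +
      2 * C₁ * (1 + Real.log (rp n)⁻¹),
    fun n => y n - (P (u n)).re + S n * yp n + (P (a n)).re, fun n => u n + S n * xp n,
    fun n => S n * rp n, a,
    fun n => round ((al (Sm P Ψ (y n) (u n) (S n) (pt (yp n) (xp n) (rp n)))).re / (2 * Real.pi)),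
    Real.pi + C₁, hSq, hrt, hva, fun n => ⟨by ring, rfl, rfl⟩, hrpt,
    picks_Aa C₁ hrp0 hrpt hMn1 (hg.mono fun n h => h.lg), ?_, ?_, hSW, ?_, ?_⟩
  · -- `rp * log E⁻¹ → 0`
    refine squeeze_zero' ?_ ?_ tendsto_one_div_add_atTop_nhds_zero_nat
    · filter_upwards [hg] with n h
      refine mul_nonneg h.pk.r0.le (Real.log_nonneg ?_)
      have h1 : E n ≤ 1 := by
        rw [h.pk.eq]
        exact min_le_left _ _
      exact (one_le_inv₀ h.pk.E0).2 h1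
    · filter_upwards [hg] with n h
      exact (mul_le_mul_of_nonneg_left (le_max_left _ _) h.pk.r0.le).trans h.pk.lg
  · -- the pick
    filter_upwards [hg, hrpt.eventually_lt_const one_pos] with n h h1
    have hr := h.pk.r0
    have h2 := h.b8
    have a1 := abs_nonneg (yp n)
    have a2 := abs_nonneg (xp n)
    have h3 : E n ≤ 1 := by
      rw [h.pk.eq]
      exact min_le_left _ _
    exact ⟨h.S0, by linarith, by linarith, hr, h.pk.E0, h3, exp_facts (hMn1 n) hC₁ hr h1, h.pk⟩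
  · -- the arc
    intro γ hγ Z hZ hZs
    obtain ⟨j₀, hj₀⟩ := H190.SQ.exists_Ej hγ hZ hZs
    have hZj : Z ⊆ H190.SQ.Ej (s - k u₀) j₀ := hj₀ j₀ le_rfl _ (by linarith)
    obtain ⟨j₁, hj₁⟩ := exists_nat_gt (2 * (X' + 5))
    filter_upwards [picks_ctl hks hSW j₀, picks_ctl hks hSW j₁, hg,
      hrpt.eventually_lt_const hh₁, hT] with n c1 c2 h c3 c4 z hz
    have hr := h.pk.r0
    have h2 := h.b8
    have a1 := abs_nonneg (yp n)
    have a2 := abs_nonneg (xp n)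
    exact arc_world hX'1 hj₁ hC₁ c4 (by linarith) (by linarith) hr c3.le hks.le (hMn1 n) c2
      (c1 z (hZj hz))
  · -- the lines at the pick
    filter_upwards [hg, hrpt.eventually_lt_const hh₁, hT] with n h c3 c4
    obtain ⟨p4, p5, p6⟩ := c4 (rp n) le_rfl (by
      have h3 : (X' + 5) * rp n ≤ (X' + 5) * (1 / (2 * (X' + 5))) :=
        mul_le_mul_of_nonneg_left c3.le (by linarith)
      have h4 : (X' + 5) * (1 / (2 * (X' + 5))) = 1 / 2 := by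
        field_simp
      linarith)
    exact ⟨round_bd _ p4, p5.trans (by linarith [Real.pi_pos])⟩

end

end Vale.Agent.P097.H133.St
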