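import Vale.Agent.P097.H509.St.Rec
import Vale.Agent.P097.H103.T.LatAl
import Vale.Agent.P097.H19.Lat

/-!
# P097 / block (T), straight line, ST-10 (b): telescoping of the lines from the unit window to the
pick
-/

set_option linter.all false

open Complex Metric Filter Topology Set
open scoped ComplexConjugate

namespace Vale.Agent.P097.H133.St

open Vale.Agent.P097.TC Vale.Agent.P097.H226.W Vale.Agent.P097.H845.St Vale.Agent.P097.H509.St

/-- bounds at all ancestors of a pick -/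
theorem tel {Λ b : ℝ} {F q : ℂ → ℂ} (hc : Cv Λ b F q) (hg : Grw b F q) {X om e V : ℝ}
    (he : 0 < e) (hX : 1 ≤ X) (hom : 0 < om) (hom1 : om ≤ 1) (hV : 0 ≤ V) :
    ∃ C : ℝ, 1 ≤ C ∧ ∀ {al p th : ℂ × ℂ → ℂ}, SQ Λ b F q 1 al p th → ∀ y x r : ℝ, |y| ≤ 1 / 2 →
      |x| ≤ 1 / 2 → 0 < r →
      (∀ h : ℝ, r ≤ h → (X + 5) * h ≤ 1 / 2 → MV b F al th X om e V y x h) →
      ∀ h : ℝ, r ≤ h → (X + 5) * h ≤ 1 / 2 →
      |(al (pt y x h)).im| ≤ C ∧ ‖p (pt y x h)‖ ≤ C ∧
        ‖al (pt y x h) - al (pt y x r)‖ ≤ C * (1 + Real.log (h / r)) := by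
  obtain ⟨K, hK, N, hN, hL⟩ := H103.T.lat_al H19.lat hc hg 1 one_pos e X om he hX hom hom1
  set E₀ : ℝ := K * ((1 / 2 : ℝ)⁻¹) ^ N * (1 + V) + Real.exp (K * ((1 / 2 : ℝ)⁻¹) ^ (1 : ℝ)) with hE₀
  have hKN : 0 ≤ K * ((1 / 2 : ℝ)⁻¹) ^ N := by positivity
  have hE1 : 1 ≤ E₀ := by
    have h1 : 1 ≤ Real.exp (K * ((1 / 2 : ℝ)⁻¹) ^ (1 : ℝ)) := Real.one_le_exp (by positivity)
    have h2 : 0 ≤ K * ((1 / 2 : ℝ)⁻¹) ^ N * (1 + V) := by positivity
    linarith
  refine ⟨max (2 * E₀) (Real.exp E₀), ?_, ?_⟩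
  · refine le_trans ?_ (le_max_left _ _)
    linarith
  intro al p th W y x r hy hx hr hMV
  have W' := sq_sh W (y₀ := y) (x₀ := x) (c := 1 / 2) (by norm_num) (by linarith) (by linarith)
  -- one window
  have one : ∀ h : ℝ, r ≤ h → (X + 5) * h ≤ 1 / 2 → ∀ h' : ℝ, h / 2 ≤ h' → h' ≤ h →
      |(al (pt y x h')).im| ≤ E₀ ∧ ‖al (pt y x h') - al (pt y x h)‖ ≤ E₀ ∧
        ‖p (pt y x h')‖ ≤ Real.exp E₀ := by
    intro h hrh hXh h' h1 h2
    have hh : 0 < h := hr.trans_le hrh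
    have hm := hMV h hrh hXh
    have e1 : (1 / 2 : ℝ) * (2 * h) = h := by ring
    rw [← e1, mv_sh (by norm_num : (0 : ℝ) < 1 / 2)] at hm
    have e2 : ∀ t : ℝ, sh y x (1 / 2) (ax (2 * t)) = pt y x t := by
      intro t
      rw [sh_ax, pt_tr]
      congr 2
      ring
    have hz := hL W' (2 * h) (by positivity) (by linarith) hm.1 (1 / 2) (by norm_num) (by norm_num)
      (ax (2 * h')) (by simp [ax]; linarith) (by simp [ax]; linarith) (by
        have e3 : ‖ax (2 * h')‖ = 2 * h' := by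
          rw [ax, Prod.norm_def, norm_neg, norm_mul, norm_I, mul_one, Complex.norm_real,
            Real.norm_of_nonneg (by linarith), max_self]
        rw [e3]
        nlinarith)
    simp only [Function.comp_apply, e2] at hz
    have h3 : K * ((1 / 2 : ℝ)⁻¹) ^ N *
        (1 + |Vq F (al ∘ sh y x (1 / 2)) (th ∘ sh y x (1 / 2)) (2 * h)|) +
        Real.exp (K * ((1 / 2 : ℝ)⁻¹) ^ (1 : ℝ)) ≤ E₀ := by
      have h4 := mul_le_mul_of_nonneg_left
        (by linarith [hm.2] : 1 + |Vq F (al ∘ sh y x (1 / 2)) (th ∘ sh y x (1 / 2)) (2 * h)| ≤ 1 + V)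
        hKN
      rw [hE₀]
      linarith
    exact ⟨hz.1.trans h3, hz.2.1.trans h3, hz.2.2.trans (Real.exp_le_exp.2 h3)⟩
  -- telescoping
  have tele : ∀ n : ℕ, ∀ h : ℝ, r ≤ h → h ≤ 2 ^ n * r → (X + 5) * h ≤ 1 / 2 →
      ‖al (pt y x h) - al (pt y x r)‖ ≤ n * E₀ := by
    intro n
    induction n with
    | zero =>
      intro h h1 h2 h3
      rw [pow_zero, one_mul] at h2
      rw [le_antisymm h2 h1]
      simp
    | succ n ih =>
      intro h h1 h2 h3
      have hh : 0 < h := hr.trans_le h1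
      have h4 : max (h / 2) r ≤ h := max_le (by linarith) h1
      have h5 := one h h1 h3 (max (h / 2) r) (le_max_left _ _) h4
      have h6 := ih (max (h / 2) r) (le_max_right _ _) (max_le (by
          rw [pow_succ] at h2
          linarith) (by
          have : (1 : ℝ) ≤ 2 ^ n := one_le_pow₀ (by norm_num)
          nlinarith)) (by nlinarith)
      have h7 : ‖al (pt y x h) - al (pt y x r)‖ ≤
          ‖al (pt y x (max (h / 2) r)) - al (pt y x h)‖ +
            ‖al (pt y x (max (h / 2) r)) - al (pt y x r)‖ := by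
        rw [← norm_neg (al (pt y x (max (h / 2) r)) - al (pt y x h))]
        refine le_trans (le_of_eq ?_) (norm_add_le _ _)
        congr 1
        ring
      push_cast
      linarith [h5.2.1]
  intro h h1 h2
  have hh : 0 < h := hr.trans_le h1
  have hhr : 1 ≤ h / r := by rwa [one_le_div hr]
  obtain ⟨g1, g2, g3⟩ := one h h1 h2 h (by linarith) le_rfl
  refine ⟨g1.trans ((by linarith : E₀ ≤ 2 * E₀).trans (le_max_left _ _)),
    g3.trans (le_max_right _ _), ?_⟩
  -- number of steps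
  set n : ℕ := ⌈Real.logb 2 (h / r)⌉₊ with hn
  have hl0 : 0 ≤ Real.logb 2 (h / r) := Real.logb_nonneg (by norm_num) hhr
  have hn1 : Real.logb 2 (h / r) ≤ n := Nat.le_ceil _
  have hn2 : (n : ℝ) ≤ Real.logb 2 (h / r) + 1 := (Nat.ceil_lt_add_one hl0).le
  have hn3 : h ≤ 2 ^ n * r := by
    rw [Real.logb_le_iff_le_rpow (by norm_num) (by positivity), Real.rpow_natCast] at hn1
    rwa [div_le_iff₀ hr] at hn1
  have h5 := tele n h h1 hn3 h2
  have hlog : Real.logb 2 (h / r) ≤ 2 * Real.log (h / r) := by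
    rw [Real.logb, div_le_iff₀ (Real.log_pos (by norm_num))]
    have h6 : 0 ≤ Real.log (h / r) := Real.log_nonneg hhr
    have h7 : (1 / 2 : ℝ) ≤ Real.log 2 := by
      have := Real.log_two_gt_d9
      linarith
    nlinarith
  have h8 : 0 ≤ Real.log (h / r) := Real.log_nonneg hhr
  calc ‖al (pt y x h) - al (pt y x r)‖ ≤ n * E₀ := h5
    _ ≤ (2 * Real.log (h / r) + 1) * E₀ := by
        apply mul_le_mul_of_nonneg_right _ (by linarith)
        linarith
    _ ≤ 2 * E₀ * (1 + Real.log (h / r)) := by nlinarith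
    _ ≤ _ := mul_le_mul_of_nonneg_right (le_max_left _ _) (by linarith)

end Vale.Agent.P097.H133.St
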