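import Vale.Agent.P097.H133.St.Tel
import Vale.Agent.P097.H133.St.Lab
import Vale.Agent.P097.H560.Back2
import Vale.Agent.P097.H190.Seq2

/-!
# P097 / block (T), straight line, ST-10 (b): the unit worlds over the nested points
-/

set_option linter.all false

open Complex Metric Filter Topology Set MeasureTheory
open scoped ComplexConjugate ENNReal

namespace Vale.Agent.P097.H133.St

open Vale.Agent.P097.TC Vale.Agent.P097.H226.W Vale.Agent.P097.H845.St Vale.Agent.P097.H509.St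
open Vale.Agent.P097.A5 (W5 Sq Tou Gro)
open Vale.Agent.P097.H560 (Sx Sm Sm_eq sw_gen cmpU_cont)
open Vale.Agent.P097.H315

section
variable {Λ H : ℝ} {F q : ℂ → ℂ} {b m : ℝ} {Ψ : ℂ → ℂ} {Mj Mk B : Set (ℂ × ℂ)} {A : Set ℝ}
  {P : ℝ → ℂ} {c k : ℝ → ℝ} {K s y₀ u₀ σ : ℝ} {al p th : ℂ × ℂ → ℂ} {J : ℂ → ℂ}

theorem grw_of {H : ℝ} {F q : ℂ → ℂ} (h : Gro H F q) : Grw H F q := by
  intro a ha
  obtain ⟨C, hC, h1⟩ := h a ha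
  exact ⟨C, h1⟩

/-- the straight worlds over a sequence of edge points -/
theorem sw_seq (W : W5 Λ H F q b m Ψ Mj Mk B A P c k K y₀ u₀ σ s al p th J) {y u : ℕ → ℝ}
    (hS : Sq A y₀ u₀ y u) {γ : ℝ} (hγ : 0 < γ) :
    ∃ ρ₀ > 0, ∀ᶠ n in atTop, ∀ ρ : ℝ, 0 < ρ → ρ ≤ ρ₀ → ∀ δ : ℝ, 0 < δ → δ ≤ s - k u₀ - γ →
      SW Λ H F q δ 1 (al ∘ Sm P Ψ (y n) (u n) ρ) (p ∘ Sm P Ψ (y n) (u n) ρ)
        (th ∘ Sm P Ψ (y n) (u n) ρ) := by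
  obtain ⟨d, hd, ρ₀, hρ₀, h⟩ := sw_gen W.crv.cv (grw_of W.crv.gro) W.rhj.dn.op W.rhk W.Uj W.Uk
    W.bm W.u0 (W.regk (γ / 2) (half_pos hγ)) W.dal W.dp W.dth W.mem W.inc W.smp (half_pos hγ)
  refine ⟨ρ₀, hρ₀, ?_⟩
  have hP := (cmpU_cont W.Uk).1
  have huw : Tendsto u atTop (𝓝[A] u₀) :=
    tendsto_nhdsWithin_iff.2 ⟨hS.ut, Eventually.of_forall hS.uA⟩
  have hPu : Tendsto (fun n => (P (u n)).re) atTop (𝓝 (P u₀).re) :=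
    (continuous_re.tendsto _).comp ((hP u₀ W.u0).tendsto.comp huw)
  have e1 : ∀ᶠ n in atTop, |u n - u₀| < d := by
    have := Metric.tendsto_nhds.1 hS.ut d hd
    filter_upwards [this] with n hn
    rwa [Real.dist_eq] at hn
  have e2 : ∀ᶠ n in atTop, |(y n - (P (u n)).re) - (y₀ - (P u₀).re)| < d := by
    have := Metric.tendsto_nhds.1 (hS.yt.sub hPu) d hd
    filter_upwards [this] with n hn
    rwa [Real.dist_eq] at hn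
  filter_upwards [e1, e2] with n h1 h2 ρ hρ hρρ δ hδ hδs
  have := h (u n) h1 (y n - (P (u n)).re) h2 ρ hρ hρρ δ hδ (by linarith)
  exact this

/-- a size of the unit world over `(y, u)` with unit `S` -/
noncomputable def Mu (P : ℝ → ℂ) (Ψ : ℂ → ℂ) (al p : ℂ × ℂ → ℂ) (δ y u S : ℝ) (n : ℕ) : ℝ :=
  1 + ∑ j ∈ Finset.range (n + 1),
    |sSup ((fun z => ‖LL (al ∘ Sm P Ψ y u S) (p ∘ Sm P Ψ y u S) z‖) '' H190.SQ.Ej δ j)|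

theorem one_le_Mu (P : ℝ → ℂ) (Ψ : ℂ → ℂ) (al p : ℂ × ℂ → ℂ) (δ y u S : ℝ) (n : ℕ) :
    1 ≤ Mu P Ψ al p δ y u S n := by
  have : 0 ≤ ∑ j ∈ Finset.range (n + 1),
      |sSup ((fun z => ‖LL (al ∘ Sm P Ψ y u S) (p ∘ Sm P Ψ y u S) z‖) '' H190.SQ.Ej δ j)| :=
    Finset.sum_nonneg fun _ _ => abs_nonneg _
  rw [Mu]
  linarith

theorem le_Mu {P : ℝ → ℂ} {Ψ : ℂ → ℂ} {al p : ℂ × ℂ → ℂ} {δ δ' y u S : ℝ} {n j : ℕ} (hj : j ≤ n)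
    (hδ : δ - 1 / (j + 2) < δ')
    (h1 : DifferentiableOn ℂ (al ∘ Sm P Ψ y u S) (Bx 1 ∩ Wd δ'))
    (h2 : DifferentiableOn ℂ (p ∘ Sm P Ψ y u S) (Bx 1 ∩ Wd δ')) {z : ℂ × ℂ}
    (hz : z ∈ H190.SQ.Ej δ j) :
    ‖LL (al ∘ Sm P Ψ y u S) (p ∘ Sm P Ψ y u S) z‖ ≤ Mu P Ψ al p δ y u S n := by
  have hsub := H190.SQ.Ej_sub δ j hδ
  have hc : ContinuousOn (fun z => ‖LL (al ∘ Sm P Ψ y u S) (p ∘ Sm P Ψ y u S) z‖)
      (H190.SQ.Ej δ j) :=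
    ((h1.continuousOn.mono hsub).prodMk (h2.continuousOn.mono hsub)).norm
  have hb := (H190.SQ.isCompact_Ej δ j).bddAbove_image hc
  have e1 := le_csSup hb (mem_image_of_mem _ hz)
  have e2 : |sSup ((fun z => ‖LL (al ∘ Sm P Ψ y u S) (p ∘ Sm P Ψ y u S) z‖) ''
      H190.SQ.Ej δ j)| ≤ ∑ j ∈ Finset.range (n + 1),
      |sSup ((fun z => ‖LL (al ∘ Sm P Ψ y u S) (p ∘ Sm P Ψ y u S) z‖) '' H190.SQ.Ej δ j)| :=
    Finset.single_le_sum (f := fun j => |sSup ((fun z =>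
      ‖LL (al ∘ Sm P Ψ y u S) (p ∘ Sm P Ψ y u S) z‖) '' H190.SQ.Ej δ j)|)
      (fun _ _ => abs_nonneg _) (Finset.mem_range.2 (by omega))
  have e3 := le_abs_self (sSup ((fun z => ‖LL (al ∘ Sm P Ψ y u S) (p ∘ Sm P Ψ y u S) z‖) ''
      H190.SQ.Ej δ j))
  rw [Mu]
  linarith

/-- inputs of `SelSt` at the world over `(y, u)` with the unit `S` -/
def InSt (H : ℝ) (F : ℂ → ℂ) (P : ℝ → ℂ) (Ψ : ℂ → ℂ) (al th : ℂ × ℂ → ℂ) (X om e V y u S : ℝ) :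
    Prop :=
  (∀ h : ℝ, 0 < h → (X + 5) * h ≤ 1 → Md H F (th ∘ Sm P Ψ y u S) X om e h ∧
    |Vq F (al ∘ Sm P Ψ y u S) (th ∘ Sm P Ψ y u S) h| ≤ V) ∧
  ∀ ε > 0, ∃ y' : ℝ, |y'| < ε ∧
    Tendsto (fun h : ℝ => |(th (Sm P Ψ y u S (pt y' 0 h))).im|) (𝓝[>] 0) (𝓝 H)

end

theorem Pick.mono {b : ℝ} {F : ℂ → ℂ} {al p th : ℂ × ℂ → ℂ} {A B : Set ℝ}
    {Xp op X om e V C₀ η κ κ' y₀ x₀ r E₀ : ℝ}
    (h : Pick b F al p th A B Xp op X om e V C₀ η κ y₀ x₀ r E₀) (hk : κ ≤ κ') :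
    Pick b F al p th A B Xp op X om e V C₀ η κ' y₀ x₀ r E₀ :=
  { h with loc := h.loc.trans hk, lg := h.lg.trans hk }

end Vale.Agent.P097.H133.St
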